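import Vale.Agent.P235.H134.Grid.Planar

/-!
# The graph-theoretic part of (G9)
-/

namespace Vale.Agent.P235.H810

open SimpleGraph Vale.Agent.P235.H134

variable {V : Type} {G : SimpleGraph V}

/-- The pieces of the branch sets: connected sets contained in `K ∖ Y` which meet `X`. -/
def Piece (G : SimpleGraph V) (K X Y : Set V) (T : Set V) : Prop :=
  T ⊆ K ∧ Disjoint T Y ∧ (G.induce T).Connected ∧ (X ∩ T).Nonempty

theorem Piece.step {K X Y T : Set V} (hT : Piece G K X Y T) {x y : V} (hx : x ∈ T) (hxy : G.Adj x y)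
    (hyK : y ∈ K) (hyY : y ∉ Y) : Piece G K X Y (T ∪ {y}) := by
  obtain ⟨h1, h2, h3, h4⟩ := hT
  have h5 : (G.induce ({x, y} : Set V)).Connected := induce_pair_connected_of_adj hxy
  have h6 : T ∪ {y} = T ∪ {x, y} := by
    ext z
    simp only [Set.mem_union, Set.mem_singleton_iff, Set.mem_insert_iff]
    constructor
    · rintro (h | h)
      · exact Or.inl h
      · exact Or.inr (Or.inr h)
    · rintro (h | h | h)
      · exact Or.inl h
      · exact Or.inl (h ▸ hx)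
      · exact Or.inr h
  refine ⟨?_, ?_, ?_, ?_⟩
  · rintro z (hz | hz)
    · exact h1 hz
    · rw [Set.mem_singleton_iff.1 hz]
      exact hyK
  · rw [Set.disjoint_union_left]
    exact ⟨h2, Set.disjoint_singleton_left.2 hyY⟩
  · rw [h6]
    exact induce_union_connected h3.preconnected h5.preconnected
      ⟨x, hx, Set.mem_insert _ _⟩
  · obtain ⟨z, hz1, hz2⟩ := h4
    exact ⟨z, hz1, Or.inl hz2⟩

/-- Follow a walk inside `K` from a piece to `Y`. -/
theorem exists_adj {K X Y : Set V} : ∀ {u v : K} (_ : (G.induce K).Walk u v),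
    (∃ T, Piece G K X Y T ∧ (u : V) ∈ T) → (v : V) ∈ Y →
    ∃ T, Piece G K X Y T ∧ ∃ x ∈ T, ∃ y ∈ Y, G.Adj x y := by
  intro u v p
  induction p with
  | nil =>
    rintro ⟨T, hT, hu⟩ hv
    exact absurd hv (Set.disjoint_left.1 hT.2.1 hu)
  | @cons u w v h p ih =>
    rintro ⟨T, hT, hu⟩ hv
    have h1 : G.Adj u w := h
    by_cases hw : (w : V) ∈ Y
    · exact ⟨T, hT, u, hu, w, hw, h1⟩
    · exact ih ⟨T ∪ {(w : V)}, hT.step hu h1 w.2 hw, Or.inr rfl⟩ hv

/-- (G9a). -/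
theorem planarComb : PlanarCombStmt := by
  intro V W _ _ G H X K hX hXd hK hKd hXK
  classical
  have hf : ∀ e : Sym2 W, ∃ p : W × W, s(p.1, p.2) = e := by
    intro e
    induction e using Sym2.ind with
    | _ a b => exact ⟨(a, b), rfl⟩
  choose f hf using hf
  -- the branch sets
  obtain ⟨𝒮, h𝒮⟩ : ∃ 𝒮 : W → Set (Set V), 𝒮 = fun a => {S | S = X a ∨ ∃ e ∈ H.edgeSet,
    (f e).1 = a ∧ ∃ T, Piece G (K e) (X a) (X (f e).2) T ∧ S = X a ∪ T} := ⟨_, rfl⟩
  have hm : ∀ a S, S ∈ 𝒮 a ↔ (S = X a ∨ ∃ e ∈ H.edgeSet,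
    (f e).1 = a ∧ ∃ T, Piece G (K e) (X a) (X (f e).2) T ∧ S = X a ∪ T) := by
    intro a S
    rw [h𝒮]
    exact Iff.rfl
  have hsub : ∀ a S, S ∈ 𝒮 a → X a ⊆ S := by
    intro a S hS
    rcases (hm a S).1 hS with h | ⟨e, -, -, T, -, h⟩
    · exact h.symm ▸ subset_rfl
    · exact h.symm ▸ Set.subset_union_left
  have hne : ∀ a, (X a).Nonempty := fun a => Set.nonempty_coe_sort.1 (hX a).nonempty
  have hkey : ∀ a x, x ∈ ⋃₀ 𝒮 a → x ∈ X a ∨ ∃ e ∈ H.edgeSet, (f e).1 = a ∧ x ∈ K e ∧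
      x ∉ X (f e).2 := by
    rintro a x ⟨S, hS, hx⟩
    rcases (hm a S).1 hS with h | ⟨e, he, hfe, T, hT, h⟩
    · exact Or.inl (h ▸ hx)
    · rw [h] at hx
      rcases hx with hx | hx
      · exact Or.inl hx
      · exact Or.inr ⟨e, he, hfe, hT.1 hx, Set.disjoint_left.1 hT.2.1 hx⟩
  -- a vertex of `K e` in `X b`
  have hend : ∀ e ∈ H.edgeSet, ∀ b x, x ∈ K e → x ∈ X b → b = (f e).1 ∨ b = (f e).2 := by
    intro e he b x hx hb
    have h1 : b ∈ e := (hXK e he b).2 ⟨x, hb, hx⟩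
    rw [← hf e, Sym2.mem_iff] at h1
    exact h1
  refine ⟨fun a => ⋃₀ 𝒮 a, ?_, ?_, ?_⟩
  · intro a
    refine induce_sUnion_connected_of_pairwise_not_disjoint ⟨X a, (hm a _).2 (Or.inl rfl)⟩ ?_ ?_
    · intro s t hs ht
      obtain ⟨x, hx⟩ := hne a
      exact ⟨x, hsub a s hs hx, hsub a t ht hx⟩
    · intro s hs
      rcases (hm a s).1 hs with h | ⟨e, -, -, T, hT, h⟩
      · rw [h]
        exact hX a
      · rw [h]
        exact induce_union_connected (hX a).preconnected hT.2.2.1.preconnected hT.2.2.2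
  · intro a b hab
    rw [Set.disjoint_left]
    intro x hxa hxb
    rcases hkey a x hxa with h1 | ⟨e, he, hfe, h1, h2⟩
    · rcases hkey b x hxb with h3 | ⟨e', he', hfe', h3, h4⟩
      · exact Set.disjoint_left.1 (hXd a b hab) h1 h3
      · rcases hend e' he' a x h3 h1 with h5 | h5
        · exact hab (h5.trans hfe')
        · exact h4 (h5 ▸ h1)
    · rcases hkey b x hxb with h3 | ⟨e', he', hfe', h3, h4⟩
      · rcases hend e he b x h1 h3 with h5 | h5
        · exact hab (hfe.symm.trans h5.symm)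
        · exact h2 (h5 ▸ h3)
      · by_cases hee : e = e'
        · exact hab (by rw [← hfe, ← hfe', hee])
        · exact Set.disjoint_left.1 (hKd e he e' he' hee) h1 h3
  · -- adjacency
    have hadj : ∀ e ∈ H.edgeSet, ∃ x ∈ ⋃₀ 𝒮 (f e).1, ∃ y ∈ ⋃₀ 𝒮 (f e).2, G.Adj x y := by
      intro e he
      obtain ⟨a, ha⟩ : ∃ a, a = (f e).1 := ⟨_, rfl⟩
      obtain ⟨b, hb⟩ : ∃ b, b = (f e).2 := ⟨_, rfl⟩
      have hab : a ≠ b := by
        have h1 : H.Adj (f e).1 (f e).2 := by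
          rw [← SimpleGraph.mem_edgeSet, hf e]
          exact he
        rw [ha, hb]
        exact h1.ne
      have hae : a ∈ e := by
        rw [← hf e, ← ha]
        exact Sym2.mem_mk_left _ _
      have hbe : b ∈ e := by
        rw [← hf e, ← hb]
        exact Sym2.mem_mk_right _ _
      obtain ⟨x, hx1, hx2⟩ := (hXK e he a).1 hae
      obtain ⟨y, hy1, hy2⟩ := (hXK e he b).1 hbe
      obtain ⟨p⟩ := (hK e he).preconnected ⟨x, hx2⟩ ⟨y, hy2⟩
      have hs : (G.induce ({x} : Set V)).Connected := by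
        rw [connected_iff]
        exact ⟨fun u v => by
          have : u = v := Subtype.ext ((Set.mem_singleton_iff.1 u.2).trans
            (Set.mem_singleton_iff.1 v.2).symm)
          rw [this], ⟨⟨x, rfl⟩⟩⟩
      have h0 : Piece G (K e) (X a) (X b) {x} :=
        ⟨Set.singleton_subset_iff.2 hx2,
          Set.disjoint_singleton_left.2 (Set.disjoint_left.1 (hXd a b hab) hx1), hs,
          ⟨x, hx1, rfl⟩⟩
      obtain ⟨T, hT, u, hu, v, hv, huv⟩ := exists_adj p ⟨{x}, h0, rfl⟩ hy1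
      refine ⟨u, ⟨X a ∪ T, ?_, Or.inr hu⟩, v, ⟨X b, ?_, hv⟩, huv⟩
      · rw [← ha, hm]
        exact Or.inr ⟨e, he, ha.symm, T, hb ▸ hT, rfl⟩
      · rw [← hb, hm]
        exact Or.inl rfl
    intro a b hab
    obtain ⟨x, hx, y, hy, hxy⟩ := hadj s(a, b) hab
    have h1 := hf s(a, b)
    rw [Sym2.eq_iff] at h1
    rcases h1 with ⟨h2, h3⟩ | ⟨h2, h3⟩
    · rw [h2] at hx
      rw [h3] at hy
      exact ⟨x, hx, y, hy, hxy⟩
    · rw [h2] at hx
      rw [h3] at hy
      exact ⟨y, hy, x, hx, hxy.symm⟩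

end Vale.Agent.P235.H810
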